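import Mathlib

open MeasureTheory Filter Topology Set
open scoped ENNReal NNReal ContDiff

namespace Vale.Agent.Lib.P141

/-- The bump profile: one on the closed ball of radius 1/4, supported in the ball of radius 1/2. -/
noncomputable def psi : ContDiffBump (0 : ℝ) := ⟨1 / 4, 1 / 2, by norm_num, by norm_num⟩

theorem psi_nonneg (u : ℝ) : 0 ≤ psi u := psi.nonneg

theorem psi_le_one (u : ℝ) : psi u ≤ 1 := psi.le_one

theorem psi_eq_one {u : ℝ} (hu : |u| ≤ 1 / 4) : psi u = 1 := by
  apply psi.one_of_mem_closedBall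
  simpa [Metric.mem_closedBall, Real.dist_eq, psi] using hu

theorem psi_eq_zero {u : ℝ} (hu : 1 / 2 ≤ |u|) : psi u = 0 := by
  apply psi.zero_of_le_dist
  simpa [Real.dist_eq, psi] using hu

/-- A finite sum of translates of the bump profile centred at integers. -/
noncomputable def bumpSum (S : Finset ℤ) (y : ℝ) : ℝ := ∑ a ∈ S, psi (y - a)

theorem bumpSum_nonneg (S : Finset ℤ) (y : ℝ) : 0 ≤ bumpSum S y :=
  Finset.sum_nonneg fun _ _ => psi_nonneg _

theorem one_le_bumpSum {S : Finset ℤ} {y : ℝ} {a : ℤ} (ha : a ∈ S) (hy : |y - a| ≤ 1 / 4) :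
    1 ≤ bumpSum S y := by
  have h1 : psi (y - a) = 1 := psi_eq_one hy
  calc (1 : ℝ) = psi (y - a) := h1.symm
    _ ≤ bumpSum S y :=
      Finset.single_le_sum (f := fun a : ℤ => psi (y - a)) (fun _ _ => psi_nonneg _) ha

theorem exists_of_bumpSum_ne_zero {S : Finset ℤ} {y : ℝ} (h : bumpSum S y ≠ 0) :
    ∃ a ∈ S, |y - a| < 1 / 2 := by
  by_contra hcon
  push Not at hcon
  apply h
  exact Finset.sum_eq_zero fun a ha => psi_eq_zero (hcon a ha)

theorem bumpSum_le_one (S : Finset ℤ) (y : ℝ) : bumpSum S y ≤ 1 := by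
  by_cases h : bumpSum S y = 0
  · rw [h]; norm_num
  · obtain ⟨a, ha, hya⟩ := exists_of_bumpSum_ne_zero h
    have : bumpSum S y = psi (y - a) := by
      apply Finset.sum_eq_single_of_mem a ha
      intro c _ hc
      apply psi_eq_zero
      by_contra hlt
      push Not at hlt
      apply hc
      have h1 : |(c : ℝ) - a| < 1 := by
        have : (c : ℝ) - a = (y - a) - (y - c) := by ring
        rw [this]
        calc |(y - a) - (y - c)| ≤ |y - a| + |y - c| := abs_sub _ _
          _ < 1 := by linarith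
      have h2 : |c - a| < 1 := by exact_mod_cast h1
      have h3 : c - a = 0 := Int.abs_lt_one_iff.mp h2
      linarith
    rw [this]
    exact psi_le_one _

theorem bumpSum_contDiff (S : Finset ℤ) : ContDiff ℝ ∞ (bumpSum S) := by
  unfold bumpSum
  apply ContDiff.sum
  intro a _
  exact psi.contDiff.comp (contDiff_id.sub contDiff_const)

theorem bumpSum_continuous (S : Finset ℤ) : Continuous (bumpSum S) :=
  (bumpSum_contDiff S).continuous

theorem bumpSum_hasCompactSupport (S : Finset ℤ) : HasCompactSupport (bumpSum S) := by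
  classical
  have hcomp : IsCompact (⋃ a ∈ S, Metric.closedBall (a : ℝ) (1 / 2)) :=
    S.isCompact_biUnion fun a _ => isCompact_closedBall _ _
  apply HasCompactSupport.intro hcomp
  intro y hy
  by_contra hne
  obtain ⟨a, ha, hya⟩ := exists_of_bumpSum_ne_zero hne
  apply hy
  simp only [mem_iUnion, Metric.mem_closedBall, Real.dist_eq]
  exact ⟨a, ha, hya.le⟩

/-- The complexified bump sum as a Schwartz function. -/
noncomputable def cBump (S : Finset ℤ) : SchwartzMap ℝ ℂ :=
  HasCompactSupport.toSchwartzMap (f := fun y => ((bumpSum S y : ℝ) : ℂ))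
    (by
      have := bumpSum_hasCompactSupport S
      exact this.comp_left (g := fun u : ℝ => (u : ℂ)) (by simp))
    (Complex.ofRealCLM.contDiff.comp (bumpSum_contDiff S))

theorem cBump_apply (S : Finset ℤ) (y : ℝ) : cBump S y = ((bumpSum S y : ℝ) : ℂ) := rfl

/-- The L^p norm of a bump sum is at most the p-th root of the number of bumps. -/
theorem eLpNorm_cBump_le (S : Finset ℤ) {p : ℝ} (hp : 0 < p) :
    eLpNorm (cBump S) (ENNReal.ofReal p) volume ≤ ENNReal.ofReal ((S.card : ℝ) ^ (1 / p)) := by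
  have hp0 : ENNReal.ofReal p ≠ 0 := by simpa using hp
  have hpt : ENNReal.ofReal p ≠ (⊤ : ℝ≥0∞) := ENNReal.ofReal_ne_top
  rw [eLpNorm_eq_lintegral_rpow_enorm_toReal hp0 hpt, ENNReal.toReal_ofReal hp.le]
  have hpoint : ∀ y : ℝ, ‖cBump S y‖ₑ ^ p ≤
      ∑ a ∈ S, (Metric.ball (a : ℝ) (1 / 2)).indicator (fun _ => (1 : ℝ≥0∞)) y := by
    intro y
    by_cases h : bumpSum S y = 0
    · have : cBump S y = 0 := by rw [cBump_apply, h]; simp
      rw [this]
      simp [ENNReal.zero_rpow_of_pos hp]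
    · obtain ⟨a, ha, hya⟩ := exists_of_bumpSum_ne_zero h
      have h1 : ‖cBump S y‖ₑ ≤ 1 := by
        rw [cBump_apply, ← ofReal_norm, Complex.norm_real, Real.norm_eq_abs,
          abs_of_nonneg (bumpSum_nonneg S y)]
        simpa using bumpSum_le_one S y
      have h2 : ‖cBump S y‖ₑ ^ p ≤ 1 := ENNReal.rpow_le_one h1 hp.le
      refine h2.trans ?_
      have h3 : (Metric.ball (a : ℝ) (1 / 2)).indicator (fun _ => (1 : ℝ≥0∞)) y = 1 := by
        apply indicator_of_mem
        simpa [Metric.mem_ball, Real.dist_eq] using hya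
      calc (1 : ℝ≥0∞) = (Metric.ball (a : ℝ) (1 / 2)).indicator (fun _ => (1 : ℝ≥0∞)) y := h3.symm
        _ ≤ _ := Finset.single_le_sum
          (f := fun a : ℤ => (Metric.ball (a : ℝ) (1 / 2)).indicator (fun _ => (1 : ℝ≥0∞)) y)
          (fun _ _ => bot_le) ha
  have hint : ∫⁻ y, ‖cBump S y‖ₑ ^ p ≤ (S.card : ℝ≥0∞) := by
    calc ∫⁻ y, ‖cBump S y‖ₑ ^ p
        ≤ ∫⁻ y, ∑ a ∈ S, (Metric.ball (a : ℝ) (1 / 2)).indicator (fun _ => (1 : ℝ≥0∞)) y :=
          lintegral_mono hpoint
      _ = ∑ a ∈ S, ∫⁻ y, (Metric.ball (a : ℝ) (1 / 2)).indicator (fun _ => (1 : ℝ≥0∞)) y := by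
          rw [lintegral_finsetSum]
          intro a _
          exact measurable_const.indicator Metric.isOpen_ball.measurableSet
      _ = ∑ a ∈ S, (1 : ℝ≥0∞) := by
          apply Finset.sum_congr rfl
          intro a _
          rw [lintegral_indicator_const Metric.isOpen_ball.measurableSet, Real.volume_ball]
          norm_num
      _ = (S.card : ℝ≥0∞) := by simp
  calc (∫⁻ y, ‖cBump S y‖ₑ ^ p) ^ (1 / p) ≤ (S.card : ℝ≥0∞) ^ (1 / p) :=
        ENNReal.rpow_le_rpow hint (by positivity)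
    _ = ENNReal.ofReal ((S.card : ℝ) ^ (1 / p)) := by
        have h0 : (S.card : ℝ≥0∞) = ENNReal.ofReal (S.card : ℝ) := by simp
        rw [h0, ENNReal.ofReal_rpow_of_nonneg (by positivity) (by positivity)]

end Vale.Agent.Lib.P141
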