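import Vale.Agent.Lib.P141.Main

open MeasureTheory Filter Topology Set
open scoped ENNReal NNReal

namespace Vale.Agent.Lib.P141

/-- A logarithmic form of the digit criterion. -/
theorem log_criterion {a A₁ A₂ A₃ g u₁ u₂ u₃ : ℝ} (ha : 0 < a) (hA₁ : 0 < A₁) (hA₂ : 0 < A₂)
    (hA₃ : 0 < A₃) (hg : 0 < g)
    (h : Real.log a + u₁ * Real.log A₁ + u₂ * Real.log A₂ + u₃ * Real.log A₃ <
      (u₁ + u₂ + u₃) * Real.log g) :
    a * A₁ ^ u₁ * A₂ ^ u₂ * A₃ ^ u₃ < g ^ (u₁ + u₂ + u₃) := by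
  have h1 : 0 < a * A₁ ^ u₁ * A₂ ^ u₂ * A₃ ^ u₃ := by positivity
  have h2 : 0 < g ^ (u₁ + u₂ + u₃) := by positivity
  rw [← Real.log_lt_log_iff h1 h2, Real.log_rpow hg,
    Real.log_mul (by positivity) (by positivity), Real.log_mul (by positivity) (by positivity),
    Real.log_mul (by positivity) (by positivity), Real.log_rpow hA₁, Real.log_rpow hA₂,
    Real.log_rpow hA₃]
  exact h

/-- The digit set with 14 elements: first coordinates 2, ..., 15. -/
def G14 : Finset (ℤ × ℤ) :=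
  {(4, 0), (3, -1), (2, -2), (8, 2), (7, 1), (6, 0), (5, -1), (12, 4), (11, 3), (10, 2), (9, 1),
    (15, 5), (14, 4), (13, 3)}

theorem G14_inj : ∀ q ∈ G14, ∀ q' ∈ G14, ((14 : ℕ) : ℤ) ∣ q.1 - q'.1 → q = q' := by decide

theorem G14_card : G14.card = 14 := by decide

theorem G14_s1 : (G14.image (fun q => q.1 - q.2)).card = 4 := by decide

theorem G14_s2 : (G14.image (fun q => q.1 - 2 * q.2)).card = 4 := by decide

theorem G14_s3 : (G14.image (fun q => q.1 - 3 * q.2)).card = 5 := by decide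

/-- The digit set for the corner where p₁ and p₂ tend to 1. -/
def G8 : Finset (ℤ × ℤ) :=
  {(0, 0), (-1, -1), (-2, -2), (-3, -3), (4, 2), (3, 1), (2, 0), (1, -1)}

theorem G8_inj : ∀ q ∈ G8, ∀ q' ∈ G8, ((8 : ℕ) : ℤ) ∣ q.1 - q'.1 → q = q' := by decide

theorem G8_card : G8.card = 8 := by decide

theorem G8_s1 : (G8.image (fun q => q.1 - q.2)).card = 2 := by decide

theorem G8_s2 : (G8.image (fun q => q.1 - 2 * q.2)).card = 4 := by decide

theorem G8_s3 : (G8.image (fun q => q.1 - 3 * q.2)).card = 5 := by decide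

/-- The digit set for the corner where p₁ and p₃ tend to 1. -/
def G6a : Finset (ℤ × ℤ) :=
  {(0, 0), (-1, -1), (-2, -2), (3, 1), (2, 0), (1, -1)}

theorem G6a_inj : ∀ q ∈ G6a, ∀ q' ∈ G6a, ((6 : ℕ) : ℤ) ∣ q.1 - q'.1 → q = q' := by decide

theorem G6a_card : G6a.card = 6 := by decide

theorem G6a_s1 : (G6a.image (fun q => q.1 - q.2)).card = 2 := by decide

theorem G6a_s2 : (G6a.image (fun q => q.1 - 2 * q.2)).card = 4 := by decide

theorem G6a_s3 : (G6a.image (fun q => q.1 - 3 * q.2)).card = 3 := by decide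

/-- The digit set for the corner where p₂ and p₃ tend to 1. -/
def G6b : Finset (ℤ × ℤ) :=
  {(0, 0), (-2, -1), (-4, -2), (3, 1), (1, 0), (-1, -1)}

theorem G6b_inj : ∀ q ∈ G6b, ∀ q' ∈ G6b, ((6 : ℕ) : ℤ) ∣ q.1 - q'.1 → q = q' := by decide

theorem G6b_card : G6b.card = 6 := by decide

theorem G6b_s1 : (G6b.image (fun q => q.1 - q.2)).card = 5 := by decide

theorem G6b_s2 : (G6b.image (fun q => q.1 - 2 * q.2)).card = 2 := by decide

theorem G6b_s3 : (G6b.image (fun q => q.1 - 3 * q.2)).card = 3 := by decide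

theorem log_four : Real.log 4 = 2 * Real.log 2 := by
  rw [show (4 : ℝ) = 2 ^ 2 by norm_num, Real.log_pow]
  norm_num

theorem log_eight : Real.log 8 = 3 * Real.log 2 := by
  rw [show (8 : ℝ) = 2 ^ 3 by norm_num, Real.log_pow]
  norm_num

theorem log_six : Real.log 6 = Real.log 2 + Real.log 3 := by
  rw [show (6 : ℝ) = 2 * 3 by norm_num, Real.log_mul (by norm_num) (by norm_num)]

theorem log_fourteen : Real.log 14 = Real.log 2 + Real.log 7 := by
  rw [show (14 : ℝ) = 2 * 7 by norm_num, Real.log_mul (by norm_num) (by norm_num)]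

/-- The numerical fact 7^9 is at least 2^9 * 5^7, in logarithmic form. -/
theorem log_fact : 7 * Real.log 5 ≤ 9 * (Real.log 7 - Real.log 2) := by
  have h : (5 : ℝ) ^ 7 * 2 ^ 9 ≤ 7 ^ 9 := by norm_num
  have h1 := Real.log_le_log (by positivity) h
  rw [Real.log_mul (by positivity) (by positivity), Real.log_pow, Real.log_pow, Real.log_pow] at h1
  norm_num at h1
  linarith

/-- Every Hölder tuple with finite exponents and r at most 7/16 fails. -/
theorem unbounded_small_r (p₁ p₂ p₃ r : ℝ) (hp₁ : 1 < p₁) (hp₂ : 1 < p₂) (hp₃ : 1 < p₃)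
    (hr : 1 / r = 1 / p₁ + 1 / p₂ + 1 / p₃) (hr7 : r ≤ 7 / 16) :
    ¬ BoundedAt (ENNReal.ofReal p₁) (ENNReal.ofReal p₂) (ENNReal.ofReal p₃) (ENNReal.ofReal r) := by
  have hr0 : 0 < r := by
    have : 0 < 1 / r := by
      rw [hr]
      positivity
    simpa using this
  apply criterion_aux G14 14 (by norm_num) G14_inj p₁ p₂ p₃ r (by linarith) (by linarith)
    (by linarith) hr
  rw [G14_s1, G14_s2, G14_s3, G14_card, hr]
  push_cast
  apply log_criterion (by norm_num) (by norm_num) (by norm_num) (by norm_num) (by norm_num)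
  rw [log_four, log_fourteen]
  have hu₃ : 1 / p₃ < 1 := by
    rw [div_lt_one (by linarith)]
    exact hp₃
  have hsum : 16 / 7 ≤ 1 / p₁ + 1 / p₂ + 1 / p₃ := by
    rw [← hr, le_div_iff₀ hr0]
    linarith
  have hf := log_fact
  have h2 : 0 < Real.log 2 := Real.log_pos (by norm_num)
  have h7 : Real.log 2 < Real.log 7 := Real.log_lt_log (by norm_num) (by norm_num)
  have h5 : Real.log 5 < Real.log 7 := Real.log_lt_log (by norm_num) (by norm_num)
  have h25 : 2 * Real.log 2 < Real.log 5 := by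
    have := Real.log_lt_log (by norm_num : (0 : ℝ) < 4) (by norm_num : (4 : ℝ) < 5)
    rw [log_four] at this
    exact this
  set u₃ := 1 / p₃
  set s := 1 / p₁ + 1 / p₂ with hs
  have hs' : 16 / 7 - u₃ ≤ s := by linarith
  have e1 : 1 / p₁ * (2 * Real.log 2) + 1 / p₂ * (2 * Real.log 2) = s * (2 * Real.log 2) := by
    rw [hs]; ring
  have key : Real.log 2 + Real.log 7 + s * (2 * Real.log 2) + u₃ * Real.log 5 <
      (s + u₃) * (Real.log 2 + Real.log 7) := by
    have h1 : (16 / 7 - u₃) * (Real.log 7 - Real.log 2) ≤ s * (Real.log 7 - Real.log 2) :=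
      mul_le_mul_of_nonneg_right hs' (by linarith)
    have h3 : u₃ * (Real.log 5 - 2 * Real.log 2) < 1 * (Real.log 5 - 2 * Real.log 2) :=
      mul_lt_mul_of_pos_right hu₃ (by linarith)
    nlinarith
  calc Real.log 2 + Real.log 7 + 1 / p₁ * (2 * Real.log 2) + 1 / p₂ * (2 * Real.log 2) + u₃ * Real.log 5
      = Real.log 2 + Real.log 7 + s * (2 * Real.log 2) + u₃ * Real.log 5 := by rw [← e1]; ring
    _ < (s + u₃) * (Real.log 2 + Real.log 7) := key

/-- The edge where p₁ and p₂ tend to 1, for every finite p₃. -/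
theorem unbounded_corner12 (p₃ : ℝ) (hp₃ : 1 < p₃) : ∃ ε > 0, ∀ p₁ p₂ r : ℝ,
    1 < p₁ → p₁ < 1 + ε → 1 < p₂ → p₂ < 1 + ε → 1 / r = 1 / p₁ + 1 / p₂ + 1 / p₃ →
    ¬ BoundedAt (ENNReal.ofReal p₁) (ENNReal.ofReal p₂) (ENNReal.ofReal p₃) (ENNReal.ofReal r) := by
  have h2 : 0 < Real.log 2 := Real.log_pos (by norm_num)
  have h58 : Real.log 5 < 3 * Real.log 2 := by
    have := Real.log_lt_log (by norm_num : (0 : ℝ) < 5) (by norm_num : (5 : ℝ) < 8)
    rw [log_eight] at this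
    exact this
  have hu₃ : 0 < 1 / p₃ := by positivity
  set u₃ := 1 / p₃ with hu₃def
  set c := u₃ * (3 * Real.log 2 - Real.log 5) with hc
  have hcpos : 0 < c := mul_pos hu₃ (by linarith)
  refine ⟨c / (3 * Real.log 2), by positivity, ?_⟩
  intro p₁ p₂ r hp₁ hp₁' hp₂ hp₂' hr
  apply criterion_aux G8 8 (by norm_num) G8_inj p₁ p₂ p₃ r (by linarith) (by linarith)
    (by linarith) hr
  rw [G8_s1, G8_s2, G8_s3, G8_card, hr]
  push_cast
  apply log_criterion (by norm_num) (by norm_num) (by norm_num) (by norm_num) (by norm_num)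
  rw [log_four, log_eight]
  set ε := c / (3 * Real.log 2) with hε
  have hεpos : 0 < ε := by positivity
  have hεeq : ε * (3 * Real.log 2) = c := by
    rw [hε]; field_simp
  have lower : ∀ p : ℝ, 1 < p → p < 1 + ε → 1 - ε < 1 / p := by
    intro p hp hp'
    have hp0 : 0 < p := by linarith
    rw [lt_div_iff₀ hp0]
    nlinarith
  have hu₁ := lower p₁ hp₁ hp₁'
  have hu₂ := lower p₂ hp₂ hp₂'
  nlinarith [mul_lt_mul_of_pos_right hu₁ h2, mul_lt_mul_of_pos_right hu₂ h2]

/-- The edge where p₁ and p₃ tend to 1, for every finite p₂. -/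
theorem unbounded_corner13 (p₂ : ℝ) (hp₂ : 1 < p₂) : ∃ ε > 0, ∀ p₁ p₃ r : ℝ,
    1 < p₁ → p₁ < 1 + ε → 1 < p₃ → p₃ < 1 + ε → 1 / r = 1 / p₁ + 1 / p₂ + 1 / p₃ →
    ¬ BoundedAt (ENNReal.ofReal p₁) (ENNReal.ofReal p₂) (ENNReal.ofReal p₃) (ENNReal.ofReal r) := by
  have h2 : 0 < Real.log 2 := Real.log_pos (by norm_num)
  have h3 : Real.log 2 < Real.log 3 := Real.log_lt_log (by norm_num) (by norm_num)
  have hu₂ : 0 < 1 / p₂ := by positivity
  set u₂ := 1 / p₂ with hu₂def
  set c := u₂ * (Real.log 3 - Real.log 2) with hc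
  have hcpos : 0 < c := mul_pos hu₂ (by linarith)
  have hD : 0 < Real.log 2 + Real.log 3 := by linarith
  refine ⟨c / (Real.log 2 + Real.log 3), by positivity, ?_⟩
  intro p₁ p₃ r hp₁ hp₁' hp₃ hp₃' hr
  apply criterion_aux G6a 6 (by norm_num) G6a_inj p₁ p₂ p₃ r (by linarith) (by linarith)
    (by linarith) hr
  rw [G6a_s1, G6a_s2, G6a_s3, G6a_card, hr]
  push_cast
  apply log_criterion (by norm_num) (by norm_num) (by norm_num) (by norm_num) (by norm_num)
  rw [log_four, log_six]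
  set ε := c / (Real.log 2 + Real.log 3) with hε
  have hεpos : 0 < ε := by positivity
  have hεeq : ε * (Real.log 2 + Real.log 3) = c := by
    rw [hε]; field_simp
  have lower : ∀ p : ℝ, 1 < p → p < 1 + ε → 1 - ε < 1 / p := by
    intro p hp hp'
    have hp0 : 0 < p := by linarith
    rw [lt_div_iff₀ hp0]
    nlinarith
  have hu₁ := lower p₁ hp₁ hp₁'
  have hu₃ := lower p₃ hp₃ hp₃'
  have h3pos : 0 < Real.log 3 := by linarith
  nlinarith [mul_lt_mul_of_pos_right hu₁ h3pos, mul_lt_mul_of_pos_right hu₃ h2]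

/-- The edge where p₂ and p₃ tend to 1, for every finite p₁. -/
theorem unbounded_corner23 (p₁ : ℝ) (hp₁ : 1 < p₁) : ∃ ε > 0, ∀ p₂ p₃ r : ℝ,
    1 < p₂ → p₂ < 1 + ε → 1 < p₃ → p₃ < 1 + ε → 1 / r = 1 / p₁ + 1 / p₂ + 1 / p₃ →
    ¬ BoundedAt (ENNReal.ofReal p₁) (ENNReal.ofReal p₂) (ENNReal.ofReal p₃) (ENNReal.ofReal r) := by
  have h2 : 0 < Real.log 2 := Real.log_pos (by norm_num)
  have h3 : Real.log 2 < Real.log 3 := Real.log_lt_log (by norm_num) (by norm_num)
  have h5 : Real.log 5 < Real.log 2 + Real.log 3 := by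
    have := Real.log_lt_log (by norm_num : (0 : ℝ) < 5) (by norm_num : (5 : ℝ) < 6)
    rw [log_six] at this
    exact this
  have hu₁ : 0 < 1 / p₁ := by positivity
  set u₁ := 1 / p₁ with hu₁def
  set c := u₁ * (Real.log 2 + Real.log 3 - Real.log 5) with hc
  have hcpos : 0 < c := mul_pos hu₁ (by linarith)
  have hD : 0 < Real.log 2 + Real.log 3 := by linarith
  refine ⟨c / (Real.log 2 + Real.log 3), by positivity, ?_⟩
  intro p₂ p₃ r hp₂ hp₂' hp₃ hp₃' hr
  apply criterion_aux G6b 6 (by norm_num) G6b_inj p₁ p₂ p₃ r (by linarith) (by linarith)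
    (by linarith) hr
  rw [G6b_s1, G6b_s2, G6b_s3, G6b_card, hr]
  push_cast
  apply log_criterion (by norm_num) (by norm_num) (by norm_num) (by norm_num) (by norm_num)
  rw [log_six]
  set ε := c / (Real.log 2 + Real.log 3) with hε
  have hεpos : 0 < ε := by positivity
  have hεeq : ε * (Real.log 2 + Real.log 3) = c := by
    rw [hε]; field_simp
  have lower : ∀ p : ℝ, 1 < p → p < 1 + ε → 1 - ε < 1 / p := by
    intro p hp hp'
    have hp0 : 0 < p := by linarith
    rw [lt_div_iff₀ hp0]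
    nlinarith
  have hu₂ := lower p₂ hp₂ hp₂'
  have hu₃ := lower p₃ hp₃ hp₃'
  have h3pos : 0 < Real.log 3 := by linarith
  nlinarith [mul_lt_mul_of_pos_right hu₂ h3pos, mul_lt_mul_of_pos_right hu₃ h2]

end Vale.Agent.Lib.P141
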