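import Mathlib

namespace Vale.Agent.Lib.P141

/-- Digit-wise tensor power of a finite set of integer pairs in base b. -/
def tensorG (G : Finset (ℤ × ℤ)) (b : ℕ) : ℕ → Finset (ℤ × ℤ)
  | 0 => {(0, 0)}
  | n + 1 => (G ×ˢ tensorG G b n).image
      (fun q => (q.1.1 + (b : ℤ) * q.2.1, q.1.2 + (b : ℤ) * q.2.2))

/-- The first coordinate is injective on every tensor power, when the first coordinates
on G are distinct modulo b. -/
theorem tensorG_injOn (G : Finset (ℤ × ℤ)) (b : ℕ) (hb : 2 ≤ b)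
    (hinj : ∀ q ∈ G, ∀ q' ∈ G, (b : ℤ) ∣ q.1 - q'.1 → q = q') (n : ℕ) :
    Set.InjOn (fun q : ℤ × ℤ => q.1) (tensorG G b n : Set (ℤ × ℤ)) := by
  induction n with
  | zero =>
    intro q hq q' hq' _
    simp only [tensorG, Finset.coe_singleton, Set.mem_singleton_iff] at hq hq'
    rw [hq, hq']
  | succ n ih =>
    intro q hq q' hq' h
    simp only [tensorG, Finset.coe_image, Set.mem_image, Finset.mem_coe, Finset.mem_product] at hq hq'
    obtain ⟨⟨g, h₀⟩, ⟨hg, hh⟩, rfl⟩ := hq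
    obtain ⟨⟨g', h₀'⟩, ⟨hg', hh'⟩, rfl⟩ := hq'
    simp only at h
    have hbz : (b : ℤ) ≠ 0 := by positivity
    have hdvd : (b : ℤ) ∣ g.1 - g'.1 := by
      refine ⟨h₀'.1 - h₀.1, ?_⟩
      linear_combination h
    have hgg : g = g' := hinj g hg g' hg' hdvd
    subst hgg
    have h1 : h₀.1 = h₀'.1 := by
      have : (b : ℤ) * h₀.1 = (b : ℤ) * h₀'.1 := by linarith
      exact mul_left_cancel₀ hbz this
    have h2 : h₀ = h₀' := ih (Finset.mem_coe.mpr hh) (Finset.mem_coe.mpr hh') h1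
    subst h2
    rfl

theorem tensorG_card (G : Finset (ℤ × ℤ)) (b : ℕ) (hb : 2 ≤ b)
    (hinj : ∀ q ∈ G, ∀ q' ∈ G, (b : ℤ) ∣ q.1 - q'.1 → q = q') (n : ℕ) :
    (tensorG G b n).card = G.card ^ n := by
  induction n with
  | zero => simp [tensorG]
  | succ n ih =>
    simp only [tensorG]
    rw [Finset.card_image_of_injOn, Finset.card_product, ih, pow_succ, mul_comm]
    intro q hq q' hq' h
    simp only [Finset.coe_product, Set.mem_prod, Finset.mem_coe] at hq hq'
    obtain ⟨hg, hh⟩ := hq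
    obtain ⟨hg', hh'⟩ := hq'
    have hbz : (b : ℤ) ≠ 0 := by positivity
    have hfst := congrArg Prod.fst h
    have hsnd := congrArg Prod.snd h
    simp only at hfst hsnd
    have hdvd : (b : ℤ) ∣ q.1.1 - q'.1.1 := by
      refine ⟨q'.2.1 - q.2.1, ?_⟩
      linear_combination hfst
    have hgg : q.1 = q'.1 := hinj q.1 hg q'.1 hg' hdvd
    have h1 : q.2.1 = q'.2.1 := by
      rw [hgg] at hfst
      have : (b : ℤ) * q.2.1 = (b : ℤ) * q'.2.1 := by linarith
      exact mul_left_cancel₀ hbz this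
    have h2 : q.2 = q'.2 :=
      tensorG_injOn G b hb hinj n (Finset.mem_coe.mpr hh) (Finset.mem_coe.mpr hh') h1
    exact Prod.ext hgg h2

/-- The slice sets of tensor powers have at most the power of the size of the digit slice. -/
theorem tensorG_slice_card (G : Finset (ℤ × ℤ)) (b : ℕ) (i : ℤ) (n : ℕ) :
    ((tensorG G b n).image (fun q => q.1 - i * q.2)).card ≤
      (G.image (fun q => q.1 - i * q.2)).card ^ n := by
  induction n with
  | zero => simp [tensorG]
  | succ n ih =>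
    have hsub : (tensorG G b (n + 1)).image (fun q => q.1 - i * q.2) ⊆
        ((G.image (fun q => q.1 - i * q.2)) ×ˢ
          ((tensorG G b n).image (fun q => q.1 - i * q.2))).image
          (fun u => u.1 + (b : ℤ) * u.2) := by
      intro y hy
      simp only [tensorG, Finset.mem_image, Finset.mem_product, Prod.exists] at hy ⊢
      obtain ⟨x, t, ⟨g₁, g₂, h₁, h₂, ⟨hg, hh⟩, hq'⟩, hy⟩ := hy
      refine ⟨g₁ - i * g₂, h₁ - i * h₂, ⟨?_, ?_⟩, ?_⟩
      · exact ⟨g₁, g₂, hg, rfl⟩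
      · exact ⟨h₁, h₂, hh, rfl⟩
      · simp only [Prod.mk.injEq] at hq'
        rw [← hy, ← hq'.1, ← hq'.2]
        ring
    calc _ ≤ _ := Finset.card_le_card hsub
      _ ≤ _ := Finset.card_image_le
      _ = (G.image (fun q => q.1 - i * q.2)).card *
          ((tensorG G b n).image (fun q => q.1 - i * q.2)).card := Finset.card_product _ _
      _ ≤ (G.image (fun q => q.1 - i * q.2)).card *
          (G.image (fun q => q.1 - i * q.2)).card ^ n := Nat.mul_le_mul_left _ ih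
      _ = _ := by rw [pow_succ, mul_comm]

/-- Size bounds for tensor powers. -/
theorem tensorG_bound (G : Finset (ℤ × ℤ)) (b : ℕ) (hb : 2 ≤ b) (W : ℤ)
    (hW : ∀ q ∈ G, |q.1| ≤ W ∧ |q.2| ≤ W) (hW0 : 0 ≤ W) (n : ℕ) :
    ∀ q ∈ tensorG G b n, |q.1| ≤ W * ((b : ℤ) ^ n - 1) ∧ |q.2| ≤ W * ((b : ℤ) ^ n - 1) := by
  induction n with
  | zero =>
    intro q hq
    simp only [tensorG, Finset.mem_singleton] at hq
    subst hq
    simp
  | succ n ih =>
    intro q hq
    simp only [tensorG, Finset.mem_image, Finset.mem_product, Prod.exists] at hq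
    obtain ⟨x, t, u, v, ⟨hg, hh⟩, rfl⟩ := hq
    have hg' := hW _ hg
    have hh' := ih _ hh
    have hb2 : (2 : ℤ) ≤ (b : ℤ) := by exact_mod_cast hb
    have hb0 : (0 : ℤ) ≤ (b : ℤ) := by linarith
    have hpow : (b : ℤ) ^ (n + 1) = (b : ℤ) ^ n * (b : ℤ) := pow_succ _ _
    have hpow1 : (1 : ℤ) ≤ (b : ℤ) ^ n := one_le_pow₀ (by linarith)
    have key : W + (b : ℤ) * (W * ((b : ℤ) ^ n - 1)) ≤ W * ((b : ℤ) ^ (n + 1) - 1) := by
      rw [hpow]
      nlinarith [mul_nonneg hW0 (by linarith : (0 : ℤ) ≤ (b : ℤ) - 2)]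
    constructor
    · calc |x + (b : ℤ) * u| ≤ |x| + |(b : ℤ) * u| := abs_add_le _ _
        _ = |x| + (b : ℤ) * |u| := by rw [abs_mul, abs_of_nonneg hb0]
        _ ≤ W + (b : ℤ) * (W * ((b : ℤ) ^ n - 1)) := by
            have := mul_le_mul_of_nonneg_left hh'.1 hb0
            linarith [hg'.1]
        _ ≤ _ := key
    · calc |t + (b : ℤ) * v| ≤ |t| + |(b : ℤ) * v| := abs_add_le _ _
        _ = |t| + (b : ℤ) * |v| := by rw [abs_mul, abs_of_nonneg hb0]
        _ ≤ W + (b : ℤ) * (W * ((b : ℤ) ^ n - 1)) := by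
            have := mul_le_mul_of_nonneg_left hh'.2 hb0
            linarith [hg'.2]
        _ ≤ _ := key

end Vale.Agent.Lib.P141
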