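import Vale.Agent.Lib.P141.Defs

open MeasureTheory Filter Topology Set
open scoped ENNReal NNReal

namespace Vale.Agent.Lib.P141

section Eval

variable (F₁ F₂ F₃ : ℝ → ℝ) (x τ₀ τ₁ : ℝ)

/-- The product of the three inputs along the progression. -/
def hProd (t : ℝ) : ℝ := F₁ (x - t) * F₂ (x - 2 * t) * F₃ (x - 3 * t)

variable {F₁ F₂ F₃ x τ₀ τ₁}

theorem hProd_continuous (h₁ : Continuous F₁) (h₂ : Continuous F₂) (h₃ : Continuous F₃) :
    Continuous (hProd F₁ F₂ F₃ x) := by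
  unfold hProd
  fun_prop

theorem hProd_eq_zero (hs : ∀ y y' : ℝ, F₁ y ≠ 0 → F₃ y' ≠ 0 → τ₀ ≤ (y - y') / 2 ∧ (y - y') / 2 ≤ τ₁)
    {t : ℝ} (ht : t ∉ Icc τ₀ τ₁) : hProd F₁ F₂ F₃ x t = 0 := by
  unfold hProd
  by_contra hne
  have h1 : F₁ (x - t) ≠ 0 := by
    intro h; apply hne; rw [h]; ring
  have h3 : F₃ (x - 3 * t) ≠ 0 := by
    intro h; apply hne; rw [h]; ring
  have := hs _ _ h1 h3
  have e : ((x - t) - (x - 3 * t)) / 2 = t := by ring
  rw [e] at this
  exact ht this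

theorem g_integrable (h₁ : Continuous F₁) (h₂ : Continuous F₂) (h₃ : Continuous F₃) (hτ : 0 < τ₀)
    (hs : ∀ y y' : ℝ, F₁ y ≠ 0 → F₃ y' ≠ 0 → τ₀ ≤ (y - y') / 2 ∧ (y - y') / 2 ≤ τ₁) :
    Integrable (fun t => hProd F₁ F₂ F₃ x t / t) := by
  have hcont : Continuous (fun t => hProd F₁ F₂ F₃ x t / max t τ₀) := by
    apply (hProd_continuous h₁ h₂ h₃).div (by fun_prop)
    intro t
    exact (lt_of_lt_of_le hτ (le_max_right _ _)).ne'
  have hcs : HasCompactSupport (fun t => hProd F₁ F₂ F₃ x t / max t τ₀) := by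
    apply HasCompactSupport.intro (isCompact_Icc (a := τ₀) (b := τ₁))
    intro t ht
    simp [hProd_eq_zero hs ht]
  have heq : (fun t => hProd F₁ F₂ F₃ x t / t) = fun t => hProd F₁ F₂ F₃ x t / max t τ₀ := by
    funext t
    by_cases ht : t ∈ Icc τ₀ τ₁
    · rw [max_eq_left ht.1]
    · simp [hProd_eq_zero hs ht]
  rw [heq]
  exact hcont.integrable_of_hasCompactSupport hcs

/-- For separated inputs the trilinear Hilbert transform is the absolutely convergent integral. -/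
theorem trilinearHilbert_eq (hτ : 0 < τ₀)
    (hs : ∀ y y' : ℝ, F₁ y ≠ 0 → F₃ y' ≠ 0 → τ₀ ≤ (y - y') / 2 ∧ (y - y') / 2 ≤ τ₁) :
    trilinearHilbert (fun y => (F₁ y : ℂ)) (fun y => (F₂ y : ℂ)) (fun y => (F₃ y : ℂ)) x =
      ((∫ t, hProd F₁ F₂ F₃ x t / t : ℝ) : ℂ) := by
  unfold trilinearHilbert
  apply Tendsto.limUnder_eq
  apply tendsto_const_nhds.congr'
  have hA : Ioo 0 τ₀ ∈ 𝓝[>] (0 : ℝ) := Ioo_mem_nhdsGT hτ
  have hB : Ioi τ₁ ∈ (atTop : Filter ℝ) := Ioi_mem_atTop τ₁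
  filter_upwards [prod_mem_prod hA hB] with q hq
  have hq1 : q.1 < τ₀ := (mem_prod.mp hq).1.2
  have hq0 : 0 < q.1 := (mem_prod.mp hq).1.1
  have hq2 : τ₁ < q.2 := (mem_prod.mp hq).2
  unfold truncT
  have hint : ∀ t : ℝ, ((F₁ (x - t) : ℂ)) * (F₂ (x - 2 * t) : ℂ) * (F₃ (x - 3 * t) : ℂ) / (t : ℂ) =
      ((hProd F₁ F₂ F₃ x t / t : ℝ) : ℂ) := by
    intro t
    unfold hProd
    push_cast
    ring
  simp_rw [hint]
  rw [setIntegral_eq_integral_of_forall_compl_eq_zero, integral_complex_ofReal]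
  intro t ht
  have : t ∉ Icc τ₀ τ₁ := by
    intro hmem
    apply ht
    have h0 : 0 < t := lt_of_lt_of_le hτ hmem.1
    simp only [Set.mem_ofPred_eq, abs_of_pos h0]
    exact ⟨lt_of_lt_of_le hq1 hmem.1, lt_of_le_of_lt hmem.2 hq2⟩
  simp [hProd_eq_zero hs this]

/-- A pointwise lower bound for the integral. -/
theorem integral_lower (h₁ : Continuous F₁) (h₂ : Continuous F₂) (h₃ : Continuous F₃)
    (n₁ : ∀ y, 0 ≤ F₁ y) (n₂ : ∀ y, 0 ≤ F₂ y) (n₃ : ∀ y, 0 ≤ F₃ y) (hτ : 0 < τ₀) (hτ₁ : 0 < τ₁)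
    (hs : ∀ y y' : ℝ, F₁ y ≠ 0 → F₃ y' ≠ 0 → τ₀ ≤ (y - y') / 2 ∧ (y - y') / 2 ≤ τ₁)
    {t₀ δ : ℝ} (hδ : 0 ≤ δ)
    (hone : ∀ t ∈ Icc (t₀ - δ) (t₀ + δ), 1 ≤ hProd F₁ F₂ F₃ x t) :
    2 * δ / τ₁ ≤ ∫ t, hProd F₁ F₂ F₃ x t / t := by
  have hI := g_integrable (x := x) h₁ h₂ h₃ hτ hs
  have hnn : ∀ t, 0 ≤ hProd F₁ F₂ F₃ x t / t := by
    intro t
    by_cases ht : t ∈ Icc τ₀ τ₁
    · apply div_nonneg
      · unfold hProd
        exact mul_nonneg (mul_nonneg (n₁ _) (n₂ _)) (n₃ _)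
      · exact (hτ.trans_le ht.1).le
    · simp [hProd_eq_zero hs ht]
  calc 2 * δ / τ₁ = ∫ _ in Icc (t₀ - δ) (t₀ + δ), (1 / τ₁ : ℝ) := by
        rw [setIntegral_const]
        simp only [smul_eq_mul, Real.volume_real_Icc]
        rw [max_eq_left (by linarith)]
        ring
    _ ≤ ∫ t in Icc (t₀ - δ) (t₀ + δ), hProd F₁ F₂ F₃ x t / t := by
        apply setIntegral_mono_on
        · exact integrableOn_const (by simp)
        · exact hI.integrableOn
        · exact measurableSet_Icc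
        · intro t ht
          have h1 := hone t ht
          have hmem : t ∈ Icc τ₀ τ₁ := by
            by_contra hnot
            rw [hProd_eq_zero hs hnot] at h1
            norm_num at h1
          have ht0 : 0 < t := hτ.trans_le hmem.1
          rw [div_le_div_iff₀ hτ₁ ht0]
          nlinarith [hmem.2]
    _ ≤ ∫ t, hProd F₁ F₂ F₃ x t / t :=
        setIntegral_le_integral hI (Eventually.of_forall hnn)

end Eval

/-- Lower bound for the L^r quasi-norm from pointwise lower bounds near integer points. -/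
theorem eLpNorm_lower (D : Finset ℤ) (Φ : ℝ → ℂ) {c r : ℝ} (hc : 0 ≤ c) (hr : 0 < r)
    (hΦ : ∀ a ∈ D, ∀ y : ℝ, |y - a| ≤ 1 / 16 → c ≤ ‖Φ y‖) :
    ENNReal.ofReal (c * ((D.card : ℝ) / 8) ^ (1 / r)) ≤ eLpNorm Φ (ENNReal.ofReal r) volume := by
  have hr0 : ENNReal.ofReal r ≠ 0 := by simpa using hr
  have hrt : ENNReal.ofReal r ≠ (⊤ : ℝ≥0∞) := ENNReal.ofReal_ne_top
  rw [eLpNorm_eq_lintegral_rpow_enorm_toReal hr0 hrt, ENNReal.toReal_ofReal hr.le]
  set I : ℤ → Set ℝ := fun a => Icc ((a : ℝ) - 1 / 16) ((a : ℝ) + 1 / 16) with hI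
  have hpoint : ∀ y : ℝ, (∑ a ∈ D, (I a).indicator (fun _ => ENNReal.ofReal (c ^ r)) y) ≤
      ‖Φ y‖ₑ ^ r := by
    intro y
    by_cases hex : ∃ a ∈ D, y ∈ I a
    · obtain ⟨a, ha, hya⟩ := hex
      have hsum : (∑ a' ∈ D, (I a').indicator (fun _ => ENNReal.ofReal (c ^ r)) y) =
          ENNReal.ofReal (c ^ r) := by
        rw [Finset.sum_eq_single_of_mem a ha]
        · exact indicator_of_mem hya _
        · intro a' _ hne
          apply indicator_of_notMem
          intro hya'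
          apply hne
          have h1 : |(a' : ℝ) - a| < 1 := by
            have h2 := hya.1
            have h3 := hya.2
            have h4 := hya'.1
            have h5 := hya'.2
            rw [abs_lt]
            constructor <;> linarith
          have h2 : |a' - a| < 1 := by exact_mod_cast h1
          have h3 : a' - a = 0 := Int.abs_lt_one_iff.mp h2
          linarith
      rw [hsum]
      have habs : |y - a| ≤ 1 / 16 := by
        rw [abs_le]
        constructor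
        · linarith [hya.1]
        · linarith [hya.2]
      have h1 := hΦ a ha y habs
      rw [← ofReal_norm, ENNReal.ofReal_rpow_of_nonneg (norm_nonneg _) hr.le]
      apply ENNReal.ofReal_le_ofReal
      exact Real.rpow_le_rpow hc h1 hr.le
    · have : (∑ a' ∈ D, (I a').indicator (fun _ => ENNReal.ofReal (c ^ r)) y) = 0 := by
        apply Finset.sum_eq_zero
        intro a ha
        apply indicator_of_notMem
        intro hya
        exact hex ⟨a, ha, hya⟩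
      rw [this]
      exact bot_le
  have hcr : 0 ≤ c ^ r := Real.rpow_nonneg hc _
  have hsumval : ∑ a ∈ D, ∫⁻ y, (I a).indicator (fun _ => ENNReal.ofReal (c ^ r)) y =
      ENNReal.ofReal (c ^ r * ((D.card : ℝ) / 8)) := by
    have hvol : ∀ a : ℤ, ∫⁻ y, (I a).indicator (fun _ => ENNReal.ofReal (c ^ r)) y =
        ENNReal.ofReal (c ^ r * (1 / 8)) := by
      intro a
      rw [lintegral_indicator_const measurableSet_Icc, Real.volume_Icc,
        ← ENNReal.ofReal_mul hcr]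
      congr 2
      ring
    simp_rw [hvol]
    rw [Finset.sum_const, nsmul_eq_mul]
    have : (D.card : ℝ≥0∞) = ENNReal.ofReal (D.card : ℝ) := by simp
    rw [this, ← ENNReal.ofReal_mul (by positivity)]
    congr 1
    ring
  have hint : ENNReal.ofReal (c ^ r * ((D.card : ℝ) / 8)) ≤ ∫⁻ y, ‖Φ y‖ₑ ^ r := by
    calc ENNReal.ofReal (c ^ r * ((D.card : ℝ) / 8))
        = ∑ a ∈ D, ∫⁻ y, (I a).indicator (fun _ => ENNReal.ofReal (c ^ r)) y := hsumval.symm
      _ = ∫⁻ y, ∑ a ∈ D, (I a).indicator (fun _ => ENNReal.ofReal (c ^ r)) y := by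
          rw [lintegral_finsetSum]
          intro a _
          exact measurable_const.indicator measurableSet_Icc
      _ ≤ ∫⁻ y, ‖Φ y‖ₑ ^ r := lintegral_mono hpoint
  have hD : 0 ≤ (D.card : ℝ) / 8 := by positivity
  calc ENNReal.ofReal (c * ((D.card : ℝ) / 8) ^ (1 / r))
      = (ENNReal.ofReal (c ^ r * ((D.card : ℝ) / 8))) ^ (1 / r) := by
        rw [ENNReal.ofReal_rpow_of_nonneg (mul_nonneg hcr hD) (by positivity),
          Real.mul_rpow hcr hD, ← Real.rpow_mul hc, mul_one_div_cancel hr.ne', Real.rpow_one]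
    _ ≤ (∫⁻ y, ‖Φ y‖ₑ ^ r) ^ (1 / r) := ENNReal.rpow_le_rpow hint (by positivity)

end Vale.Agent.Lib.P141
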