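import Vale.Agent.Lib.P141.Defs
import Vale.Agent.Lib.P141.Digits
import Vale.Agent.Lib.P141.Bump
import Vale.Agent.Lib.P141.Eval

open MeasureTheory Filter Topology Set
open scoped ENNReal NNReal

namespace Vale.Agent.Lib.P141

section Level

variable (G : Finset (ℤ × ℤ)) (b : ℕ) (W : ℤ) (n : ℕ)

/-- The separation shift at level n. -/
def shiftL : ℤ := 3 * W * (b : ℤ) ^ n + 1

/-- Support points of the first input. -/
def S₁ : Finset ℤ := (tensorG G b n).image (fun q => q.1 - q.2 + shiftL b W n)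

/-- Support points of the second input. -/
def S₂ : Finset ℤ := (tensorG G b n).image (fun q => q.1 - 2 * q.2)

/-- Support points of the third input. -/
def S₃ : Finset ℤ := (tensorG G b n).image (fun q => q.1 - 3 * q.2 - shiftL b W n)

/-- Points near which the output is large. -/
def outD : Finset ℤ := (tensorG G b n).image (fun q => q.1 + 2 * shiftL b W n)

variable {G b W n}

theorem shiftL_pos (hW0 : 0 ≤ W) : 0 < shiftL b W n := by
  unfold shiftL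
  positivity

theorem support_sep (hb : 2 ≤ b) (hW : ∀ q ∈ G, |q.1| ≤ W ∧ |q.2| ≤ W) (hW0 : 0 ≤ W) (y y' : ℝ)
    (h₁ : bumpSum (S₁ G b W n) y ≠ 0) (h₃ : bumpSum (S₃ G b W n) y' ≠ 0) :
    1 / 2 ≤ (y - y') / 2 ∧ (y - y') / 2 ≤ 2 * (shiftL b W n : ℝ) := by
  obtain ⟨a, ha, hya⟩ := exists_of_bumpSum_ne_zero h₁
  obtain ⟨c, hc, hyc⟩ := exists_of_bumpSum_ne_zero h₃
  simp only [S₁, Finset.mem_image] at ha
  simp only [S₃, Finset.mem_image] at hc
  obtain ⟨q, hq, rfl⟩ := ha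
  obtain ⟨q', hq', rfl⟩ := hc
  have hB := tensorG_bound G b hb W hW hW0 n q hq
  have hB' := tensorG_bound G b hb W hW hW0 n q' hq'
  set L := shiftL b W n with hL
  have hLdef : L = 3 * W * (b : ℤ) ^ n + 1 := rfl
  have hp1 : (1 : ℤ) ≤ (b : ℤ) ^ n := one_le_pow₀ (by exact_mod_cast (by omega : 1 ≤ b))
  obtain ⟨h1l, h1u⟩ := abs_le.mp hB.1
  obtain ⟨h2l, h2u⟩ := abs_le.mp hB.2
  obtain ⟨h3l, h3u⟩ := abs_le.mp hB'.1
  obtain ⟨h4l, h4u⟩ := abs_le.mp hB'.2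
  set Q := W * ((b : ℤ) ^ n - 1) with hQ
  have hQL : 2 * L = 6 * Q + 6 * W + 2 := by
    rw [hLdef, hQ]; ring
  have hW' : (0 : ℝ) ≤ (W : ℝ) := by exact_mod_cast hW0
  have hQ0 : 0 ≤ Q := mul_nonneg hW0 (by linarith)
  have hQ0' : (0 : ℝ) ≤ (Q : ℝ) := by exact_mod_cast hQ0
  have hQLr : 2 * (L : ℝ) = 6 * (Q : ℝ) + 6 * (W : ℝ) + 2 := by exact_mod_cast hQL
  have h1l' : -(Q : ℝ) ≤ (q.1 : ℝ) := by exact_mod_cast h1l
  have h1u' : (q.1 : ℝ) ≤ (Q : ℝ) := by exact_mod_cast h1u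
  have h2l' : -(Q : ℝ) ≤ (q.2 : ℝ) := by exact_mod_cast h2l
  have h2u' : (q.2 : ℝ) ≤ (Q : ℝ) := by exact_mod_cast h2u
  have h3l' : -(Q : ℝ) ≤ (q'.1 : ℝ) := by exact_mod_cast h3l
  have h3u' : (q'.1 : ℝ) ≤ (Q : ℝ) := by exact_mod_cast h3u
  have h4l' : -(Q : ℝ) ≤ (q'.2 : ℝ) := by exact_mod_cast h4l
  have h4u' : (q'.2 : ℝ) ≤ (Q : ℝ) := by exact_mod_cast h4u
  obtain ⟨hya1, hya2⟩ := abs_lt.mp hya
  obtain ⟨hyc1, hyc2⟩ := abs_lt.mp hyc
  push_cast at hya1 hya2 hyc1 hyc2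
  constructor
  · linarith
  · linarith

theorem bumpSum_prod_ge_one {q : ℤ × ℤ} (hq : q ∈ tensorG G b n) {y t : ℝ}
    (hy : |y - ((q.1 + 2 * shiftL b W n : ℤ) : ℝ)| ≤ 1 / 16)
    (ht : t ∈ Icc (((q.2 + shiftL b W n : ℤ) : ℝ) - 1 / 16) (((q.2 + shiftL b W n : ℤ) : ℝ) + 1 / 16)) :
    1 ≤ hProd (bumpSum (S₁ G b W n)) (bumpSum (S₂ G b n)) (bumpSum (S₃ G b W n)) y t := by
  have hm₁ : q.1 - q.2 + shiftL b W n ∈ S₁ G b W n :=
    Finset.mem_image.mpr ⟨q, hq, rfl⟩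
  have hm₂ : q.1 - 2 * q.2 ∈ S₂ G b n :=
    Finset.mem_image.mpr ⟨q, hq, rfl⟩
  have hm₃ : q.1 - 3 * q.2 - shiftL b W n ∈ S₃ G b W n :=
    Finset.mem_image.mpr ⟨q, hq, rfl⟩
  obtain ⟨hy1, hy2⟩ := abs_le.mp hy
  obtain ⟨ht1, ht2⟩ := ht
  push_cast at hy1 hy2 ht1 ht2
  have h₁ : 1 ≤ bumpSum (S₁ G b W n) (y - t) := by
    apply one_le_bumpSum hm₁
    rw [abs_le]
    push_cast
    constructor <;> linarith
  have h₂ : 1 ≤ bumpSum (S₂ G b n) (y - 2 * t) := by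
    apply one_le_bumpSum hm₂
    rw [abs_le]
    push_cast
    constructor <;> linarith
  have h₃ : 1 ≤ bumpSum (S₃ G b W n) (y - 3 * t) := by
    apply one_le_bumpSum hm₃
    rw [abs_le]
    push_cast
    constructor <;> linarith
  unfold hProd
  have h12 : 1 ≤ bumpSum (S₁ G b W n) (y - t) * bumpSum (S₂ G b n) (y - 2 * t) :=
    one_le_mul_of_one_le_of_one_le h₁ h₂
  exact one_le_mul_of_one_le_of_one_le h12 h₃

/-- The pointwise lower bound for the output. -/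
theorem output_lower (hb : 2 ≤ b) (hW : ∀ q ∈ G, |q.1| ≤ W ∧ |q.2| ≤ W) (hW0 : 0 ≤ W) :
    ∀ a ∈ outD G b W n, ∀ y : ℝ, |y - a| ≤ 1 / 16 →
      1 / (16 * (shiftL b W n : ℝ)) ≤
        ‖trilinearHilbert (cBump (S₁ G b W n)) (cBump (S₂ G b n)) (cBump (S₃ G b W n)) y‖ := by
  intro a ha y hy
  simp only [outD, Finset.mem_image] at ha
  obtain ⟨q, hq, rfl⟩ := ha
  have hLpos : (0 : ℝ) < (shiftL b W n : ℝ) := by exact_mod_cast shiftL_pos hW0
  have hs := support_sep (n := n) (G := G) hb hW hW0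
  have heq := trilinearHilbert_eq (F₁ := bumpSum (S₁ G b W n)) (F₂ := bumpSum (S₂ G b n))
    (F₃ := bumpSum (S₃ G b W n)) (x := y) (τ₀ := 1 / 2) (τ₁ := 2 * (shiftL b W n : ℝ))
    (by norm_num) hs
  have hlow := integral_lower (F₁ := bumpSum (S₁ G b W n)) (F₂ := bumpSum (S₂ G b n))
    (F₃ := bumpSum (S₃ G b W n)) (x := y) (τ₀ := 1 / 2) (τ₁ := 2 * (shiftL b W n : ℝ))
    (bumpSum_continuous _) (bumpSum_continuous _) (bumpSum_continuous _)
    (bumpSum_nonneg _) (bumpSum_nonneg _) (bumpSum_nonneg _)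
    (by norm_num) (by positivity) hs (t₀ := ((q.2 + shiftL b W n : ℤ) : ℝ)) (δ := 1 / 16)
    (by norm_num) (fun t ht => bumpSum_prod_ge_one hq hy ht)
  have hfun : trilinearHilbert (cBump (S₁ G b W n)) (cBump (S₂ G b n)) (cBump (S₃ G b W n)) y =
      ((∫ t, hProd (bumpSum (S₁ G b W n)) (bumpSum (S₂ G b n)) (bumpSum (S₃ G b W n)) y t / t : ℝ)
        : ℂ) := heq
  rw [hfun, Complex.norm_real, Real.norm_eq_abs]
  refine le_trans ?_ (le_abs_self _)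
  refine le_trans (le_of_eq ?_) hlow
  field_simp

end Level


theorem final_alg {En e8 e8' L C Pi Bn bn W' : ℝ} (h : (1 / (16 * L)) * (En * e8') ≤ C * Pi)
    (hL : 0 < L) (h8 : e8' * e8 = 1) (h8pos : 0 < e8) (hLle : L ≤ W' * bn) (hC : 0 ≤ C)
    (hPi : 0 ≤ Pi) (hBn : Bn = bn * Pi) : En ≤ (16 * W' * C * e8) * Bn := by
  have h16 : 0 < 16 * L := by positivity
  have hstep1 : En * e8' ≤ 16 * L * (C * Pi) := by
    have := mul_le_mul_of_nonneg_left h h16.le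
    calc En * e8' = 16 * L * (1 / (16 * L) * (En * e8')) := by
          field_simp
      _ ≤ _ := this
  have hstep2 : En = (En * e8') * e8 := by
    rw [mul_assoc, h8, mul_one]
  rw [hstep2, hBn]
  calc (En * e8') * e8 ≤ (16 * L * (C * Pi)) * e8 := mul_le_mul_of_nonneg_right hstep1 h8pos.le
    _ ≤ (16 * (W' * bn) * (C * Pi)) * e8 := by
        apply mul_le_mul_of_nonneg_right _ h8pos.le
        apply mul_le_mul_of_nonneg_right _ (mul_nonneg hC hPi)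
        linarith
    _ = _ := by ring

theorem pow_rpow_swap {A : ℝ} (hA : 0 ≤ A) (u : ℝ) (n : ℕ) : (A ^ n) ^ u = (A ^ u) ^ n := by
  rw [← Real.rpow_natCast, ← Real.rpow_natCast, ← Real.rpow_mul hA, ← Real.rpow_mul hA, mul_comm]

theorem card_outD {G : Finset (ℤ × ℤ)} {b : ℕ} (hb : 2 ≤ b) (W : ℤ)
    (hinj : ∀ q ∈ G, ∀ q' ∈ G, (b : ℤ) ∣ q.1 - q'.1 → q = q') (n : ℕ) :
    (outD G b W n).card = G.card ^ n := by
  unfold outD
  rw [Finset.card_image_of_injOn, tensorG_card G b hb hinj n]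
  intro q hq q' hq' h
  apply tensorG_injOn G b hb hinj n hq hq'
  simpa using h

theorem card_S₁ (G : Finset (ℤ × ℤ)) (b : ℕ) (W : ℤ) (n : ℕ) :
    (S₁ G b W n).card ≤ (G.image (fun q => q.1 - q.2)).card ^ n := by
  have h1 : S₁ G b W n = ((tensorG G b n).image (fun q => q.1 - (1 : ℤ) * q.2)).image
      (fun u => u + shiftL b W n) := by
    unfold S₁
    rw [Finset.image_image]
    apply Finset.image_congr
    intro q _
    simp
  have h2 := tensorG_slice_card G b 1 n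
  have h3 : (G.image (fun q => q.1 - (1 : ℤ) * q.2)) = G.image (fun q => q.1 - q.2) := by
    apply Finset.image_congr
    intro q _
    simp
  rw [h3] at h2
  rw [h1]
  exact Finset.card_image_le.trans h2

theorem card_S₂ (G : Finset (ℤ × ℤ)) (b : ℕ) (n : ℕ) :
    (S₂ G b n).card ≤ (G.image (fun q => q.1 - 2 * q.2)).card ^ n :=
  tensorG_slice_card G b 2 n

theorem card_S₃ (G : Finset (ℤ × ℤ)) (b : ℕ) (W : ℤ) (n : ℕ) :
    (S₃ G b W n).card ≤ (G.image (fun q => q.1 - 3 * q.2)).card ^ n := by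
  have h1 : S₃ G b W n = ((tensorG G b n).image (fun q => q.1 - (3 : ℤ) * q.2)).image
      (fun u => u - shiftL b W n) := by
    unfold S₃
    rw [Finset.image_image]
    rfl
  have h2 := tensorG_slice_card G b 3 n
  rw [h1]
  exact Finset.card_image_le.trans h2

theorem card_rpow_le {S : Finset ℤ} {A : ℕ} {n : ℕ} (h : S.card ≤ A ^ n) {p : ℝ} (hp : 0 < p) :
    ((S.card : ℝ)) ^ (1 / p) ≤ ((A : ℝ) ^ (1 / p)) ^ n := by
  have h1 : (S.card : ℝ) ≤ (A : ℝ) ^ n := by exact_mod_cast h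
  calc (S.card : ℝ) ^ (1 / p) ≤ ((A : ℝ) ^ n) ^ (1 / p) :=
        Real.rpow_le_rpow (by positivity) h1 (by positivity)
    _ = _ := pow_rpow_swap (by positivity) _ _

/-- The inequality at level n implied by a bound for the operator. -/
theorem level_ineq (G : Finset (ℤ × ℤ)) (b : ℕ) (hb : 2 ≤ b)
    (hinj : ∀ q ∈ G, ∀ q' ∈ G, (b : ℤ) ∣ q.1 - q'.1 → q = q')
    (p₁ p₂ p₃ r : ℝ) (hp₁ : 0 < p₁) (hp₂ : 0 < p₂) (hp₃ : 0 < p₃) (hr0 : 0 < r) (C : ℝ≥0)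
    (hC : ∀ f₁ f₂ f₃ : SchwartzMap ℝ ℂ,
      eLpNorm (trilinearHilbert f₁ f₂ f₃) (ENNReal.ofReal r) volume ≤
      C * (eLpNorm f₁ (ENNReal.ofReal p₁) volume * eLpNorm f₂ (ENNReal.ofReal p₂) volume *
        eLpNorm f₃ (ENNReal.ofReal p₃) volume))
    (W : ℤ) (hW0 : 0 ≤ W) (hW : ∀ q ∈ G, |q.1| ≤ W ∧ |q.2| ≤ W) (n : ℕ) :
    (1 / (16 * (shiftL b W n : ℝ))) * ((((G.card : ℝ) ^ n) / 8) ^ (1 / r)) ≤
      (C : ℝ) * ((((G.image (fun q => q.1 - q.2)).card : ℝ) ^ (1 / p₁)) ^ n *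
        (((G.image (fun q => q.1 - 2 * q.2)).card : ℝ) ^ (1 / p₂)) ^ n *
        (((G.image (fun q => q.1 - 3 * q.2)).card : ℝ) ^ (1 / p₃)) ^ n) := by
  have hLpos : (0 : ℝ) < (shiftL b W n : ℝ) := by exact_mod_cast shiftL_pos hW0
  have hlow := eLpNorm_lower (outD G b W n)
    (trilinearHilbert (cBump (S₁ G b W n)) (cBump (S₂ G b n)) (cBump (S₃ G b W n)))
    (c := 1 / (16 * (shiftL b W n : ℝ))) (r := r) (by positivity) hr0 (output_lower hb hW hW0)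
  have hup := hC (cBump (S₁ G b W n)) (cBump (S₂ G b n)) (cBump (S₃ G b W n))
  have hU₁ := (eLpNorm_cBump_le (S₁ G b W n) hp₁).trans
    (ENNReal.ofReal_le_ofReal (card_rpow_le (card_S₁ G b W n) hp₁))
  have hU₂ := (eLpNorm_cBump_le (S₂ G b n) hp₂).trans
    (ENNReal.ofReal_le_ofReal (card_rpow_le (card_S₂ G b n) hp₂))
  have hU₃ := (eLpNorm_cBump_le (S₃ G b W n) hp₃).trans
    (ENNReal.ofReal_le_ofReal (card_rpow_le (card_S₃ G b W n) hp₃))
  rw [card_outD hb W hinj n] at hlow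
  push_cast at hlow
  have hchain := hlow.trans (hup.trans (mul_le_mul' le_rfl (mul_le_mul' (mul_le_mul' hU₁ hU₂) hU₃)))
  rw [← ENNReal.ofReal_mul (by positivity), ← ENNReal.ofReal_mul (by positivity)] at hchain
  have hC' : (C : ℝ≥0∞) = ENNReal.ofReal (C : ℝ) := by simp
  rw [hC', ← ENNReal.ofReal_mul (by positivity)] at hchain
  exact (ENNReal.ofReal_le_ofReal_iff (by positivity)).mp hchain

theorem criterion_aux (G : Finset (ℤ × ℤ)) (b : ℕ) (hb : 2 ≤ b)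
    (hinj : ∀ q ∈ G, ∀ q' ∈ G, (b : ℤ) ∣ q.1 - q'.1 → q = q')
    (p₁ p₂ p₃ r : ℝ) (hp₁ : 0 < p₁) (hp₂ : 0 < p₂) (hp₃ : 0 < p₃)
    (hr : 1 / r = 1 / p₁ + 1 / p₂ + 1 / p₃)
    (hcrit : (b : ℝ) * ((G.image (fun q => q.1 - q.2)).card : ℝ) ^ (1 / p₁) *
        ((G.image (fun q => q.1 - 2 * q.2)).card : ℝ) ^ (1 / p₂) *
        ((G.image (fun q => q.1 - 3 * q.2)).card : ℝ) ^ (1 / p₃) < (G.card : ℝ) ^ (1 / r)) :
    ¬ BoundedAt (ENNReal.ofReal p₁) (ENNReal.ofReal p₂) (ENNReal.ofReal p₃) (ENNReal.ofReal r) := by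
  rintro ⟨C, hC⟩
  have hr0 : 0 < r := by
    have : 0 < 1 / r := by
      rw [hr]
      positivity
    simpa using this
  obtain ⟨W, hW0, hW⟩ : ∃ W : ℤ, 0 ≤ W ∧ ∀ q ∈ G, |q.1| ≤ W ∧ |q.2| ≤ W := by
    have hsum0 : 0 ≤ ∑ q ∈ G, (|q.1| + |q.2|) :=
      Finset.sum_nonneg fun q _ => add_nonneg (abs_nonneg _) (abs_nonneg _)
    refine ⟨∑ q ∈ G, (|q.1| + |q.2|), hsum0, ?_⟩
    intro q hq
    have h1 : |q.1| + |q.2| ≤ ∑ q ∈ G, (|q.1| + |q.2|) :=
      Finset.single_le_sum (f := fun q : ℤ × ℤ => |q.1| + |q.2|)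
        (fun q _ => add_nonneg (abs_nonneg _) (abs_nonneg _)) hq
    constructor <;> linarith [abs_nonneg q.1, abs_nonneg q.2]
  generalize hA₁ : ((G.image (fun q => q.1 - q.2)).card : ℝ) = A₁ at hcrit
  generalize hA₂ : ((G.image (fun q => q.1 - 2 * q.2)).card : ℝ) = A₂ at hcrit
  generalize hA₃ : ((G.image (fun q => q.1 - 3 * q.2)).card : ℝ) = A₃ at hcrit
  have hlev := level_ineq G b hb hinj p₁ p₂ p₃ r hp₁ hp₂ hp₃ hr0 C hC W hW0 hW
  rw [hA₁, hA₂, hA₃] at hlev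
  have hA₁nn : 0 ≤ A₁ := by rw [← hA₁]; positivity
  have hA₂nn : 0 ≤ A₂ := by rw [← hA₂]; positivity
  have hA₃nn : 0 ≤ A₃ := by rw [← hA₃]; positivity
  have hb0 : (0 : ℝ) < (b : ℝ) := by
    have : 0 < b := by omega
    exact_mod_cast this
  have hGcard : (0 : ℝ) ≤ (G.card : ℝ) := by positivity
  have hr1 : 0 < 1 / r := by positivity
  have hGne : G.Nonempty := by
    by_contra hne
    rw [Finset.not_nonempty_iff_eq_empty] at hne
    rw [hne] at hcrit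
    simp only [Finset.card_empty, Nat.cast_zero, Real.zero_rpow hr1.ne'] at hcrit
    have : 0 ≤ (b : ℝ) * A₁ ^ (1 / p₁) * A₂ ^ (1 / p₂) * A₃ ^ (1 / p₃) := by positivity
    linarith
  have hA₁pos : 0 < A₁ := by
    rw [← hA₁]; exact_mod_cast (Finset.card_pos.mpr (hGne.image _))
  have hA₂pos : 0 < A₂ := by
    rw [← hA₂]; exact_mod_cast (Finset.card_pos.mpr (hGne.image _))
  have hA₃pos : 0 < A₃ := by
    rw [← hA₃]; exact_mod_cast (Finset.card_pos.mpr (hGne.image _))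
  generalize hE : (G.card : ℝ) ^ (1 / r) = E at hcrit
  generalize hB : (b : ℝ) * A₁ ^ (1 / p₁) * A₂ ^ (1 / p₂) * A₃ ^ (1 / p₃) = B at hcrit
  have hBpos : 0 < B := by rw [← hB]; positivity
  have hlevel : ∀ n : ℕ, E ^ n ≤ (16 * (3 * (W : ℝ) + 1) * (C : ℝ) * 8 ^ (1 / r)) * B ^ n := by
    intro n
    have hLpos : (0 : ℝ) < (shiftL b W n : ℝ) := by exact_mod_cast shiftL_pos hW0
    have hl := hlev n
    have hleft : (((G.card : ℝ) ^ n / 8) ^ (1 / r)) = E ^ n * (1 / 8) ^ (1 / r) := by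
      rw [div_eq_mul_one_div, Real.mul_rpow (by positivity) (by positivity), ← hE,
        pow_rpow_swap hGcard]
    rw [hleft] at hl
    have h8 : ((1 : ℝ) / 8) ^ (1 / r) * 8 ^ (1 / r) = 1 := by
      rw [← Real.mul_rpow (by norm_num) (by norm_num)]
      norm_num
    have hLle : (shiftL b W n : ℝ) ≤ (3 * (W : ℝ) + 1) * (b : ℝ) ^ n := by
      have hW' : (0 : ℝ) ≤ (W : ℝ) := by exact_mod_cast hW0
      have hp1 : (1 : ℝ) ≤ (b : ℝ) ^ n := one_le_pow₀ (by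
        have : 1 ≤ b := by omega
        exact_mod_cast this)
      unfold shiftL
      push_cast
      nlinarith
    exact final_alg hl hLpos h8 (by positivity) hLle C.coe_nonneg (by positivity)
      (by rw [← hB]; ring)
  have hratio : 1 < E / B := by
    rw [one_lt_div hBpos]
    exact hcrit
  obtain ⟨n, hn⟩ := pow_unbounded_of_one_lt (16 * (3 * (W : ℝ) + 1) * (C : ℝ) * 8 ^ (1 / r)) hratio
  have hfinal := hlevel n
  rw [div_pow, lt_div_iff₀ (by positivity)] at hn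
  linarith

end Vale.Agent.Lib.P141
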